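import Vale.Agent.P290.R2.H596.Spec

/-! Linear algebra and auxiliary lemmas for the interpolation of 1-jets. -/

open Set Filter Metric
open scoped Topology

namespace Vale.Agent.P290.R2.H340

open Vale.Agent.P290 Vale.Agent.P290.K Vale.Agent.P290.H580 Vale.Agent.P290.H805
open Vale.Agent.P290.R2.H596

/-- solving `M + B M = C` for a small endomorphism `B` -/
theorem exists_lin {V : Type} [NormedAddCommGroup V] [NormedSpace ℂ V] (B : C2 →L[ℂ] C2)
    (hB : ‖B‖ ≤ 1 / 32) (C : V →L[ℂ] C2) :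
    ∃ M : V →L[ℂ] C2, (∀ ζ, M ζ + B (M ζ) = C ζ) ∧ ‖M‖ ≤ 2 * ‖C‖ := by
  have h1 : ‖-B‖ < 1 := by rw [norm_neg]; linarith
  obtain ⟨U, hU⟩ : ∃ U : (C2 →L[ℂ] C2)ˣ, (U : C2 →L[ℂ] C2) = 1 - -B :=
    ⟨Units.oneSub (-B) h1, Units.val_oneSub _ _⟩
  have h2 : ∀ v : C2, ((U⁻¹ : (C2 →L[ℂ] C2)ˣ) : C2 →L[ℂ] C2) v +
      B (((U⁻¹ : (C2 →L[ℂ] C2)ˣ) : C2 →L[ℂ] C2) v) = v := by
    intro v
    have h3 : (U : C2 →L[ℂ] C2) * ((U⁻¹ : (C2 →L[ℂ] C2)ˣ) : C2 →L[ℂ] C2) = 1 := U.mul_inv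
    rw [hU] at h3
    have h4 := congrArg (fun f : C2 →L[ℂ] C2 => f v) h3
    simpa using h4
  refine ⟨((U⁻¹ : (C2 →L[ℂ] C2)ˣ) : C2 →L[ℂ] C2).comp C, fun ζ => h2 (C ζ), ?_⟩
  obtain ⟨M, hM⟩ : ∃ M, M = ((U⁻¹ : (C2 →L[ℂ] C2)ˣ) : C2 →L[ℂ] C2).comp C := ⟨_, rfl⟩
  have h3 : M = C - B.comp M := by
    ext1 ζ
    have h4 : M ζ + B (M ζ) = C ζ := by rw [hM]; exact h2 (C ζ)
    change M ζ = C ζ - B (M ζ)
    rw [← h4, add_sub_cancel_right]
  rw [← hM]
  have h4 : ‖M‖ ≤ ‖C‖ + 1 / 32 * ‖M‖ := by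
    calc ‖M‖ = ‖C - B.comp M‖ := by rw [← h3]
      _ ≤ ‖C‖ + ‖B.comp M‖ := norm_sub_le _ _
      _ ≤ ‖C‖ + ‖B‖ * ‖M‖ := by gcongr; exact B.opNorm_comp_le M
      _ ≤ ‖C‖ + 1 / 32 * ‖M‖ := by gcongr
  linarith [norm_nonneg C]

/-- interpolation on an arbitrary finite-dimensional space -/
theorem interpV (hi : StInterp) {V : Type} [NormedAddCommGroup V] [NormedSpace ℂ V]
    [FiniteDimensional ℂ V] {k : ℕ} {z : Fin k → V} (hz : Function.Injective z)
    (c : Fin k → ℂ) : ∃ P : V → ℂ, Differentiable ℂ P ∧ ∀ j, P (z j) = c j := by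
  let e : V ≃L[ℂ] (Fin (Module.finrank ℂ V) → ℂ) :=
    (Module.finBasis ℂ V).equivFun.toContinuousLinearEquiv
  obtain ⟨P, hP, hPz⟩ := hi (Module.finrank ℂ V) k (fun j => e (z j)) (e.injective.comp hz) c
  exact ⟨fun y => P (e y), hP.comp e.differentiable, hPz⟩

/-- distinct nodes on the unit circle -/
theorem exists_nodes (k : ℕ) : ∃ n : Fin (k + 1) → ℂ, (∀ j, ‖n j‖ = 1) ∧ Function.Injective n := by
  have h := Complex.isPrimitiveRoot_exp (k + 1) (Nat.succ_ne_zero k)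
  refine ⟨fun j => Complex.exp (2 * Real.pi * Complex.I / ((k + 1 : ℕ) : ℂ)) ^ (j : ℕ), ?_, ?_⟩
  · intro j
    rw [norm_pow, h.norm'_eq_one (Nat.succ_ne_zero k), one_pow]
  · intro i j hij
    exact Fin.ext (h.pow_inj i.2 j.2 hij)

section
variable {T E : Type} [TopologicalSpace T] [TopologicalSpace E]

theorem continuousAt_p (F : Family T E) (x : E) : ContinuousAt F.p x := by
  have h1 : ContinuousAt (fun y => (F.triv x y).1) x :=
    continuousAt_fst.comp ((F.triv x).continuousAt (F.mem x))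
  refine h1.congr ?_
  filter_upwards [(F.triv x).open_source.mem_nhds (F.mem x)] with y hy
  exact F.fst x y hy

/-- the condition on the values at the node `j` -/
def Nr {k : ℕ} (F : Family T E) (x : Fin k → E) (δ : ℝ) (j : Fin k) : Set ((Fin k → C2) × E) :=
  {q | q.2 ∈ (F.triv (x j)).source ∧
    ‖(F.triv (x j) q.2).2 - (F.triv (x j) (x j)).2 - q.1 j‖ < δ}

theorem isOpen_Nr {k : ℕ} (F : Family T E) (x : Fin k → E) (δ : ℝ) (j : Fin k) :
    IsOpen (Nr F x δ j) := by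
  have h1 : IsOpen (Prod.snd ⁻¹' (F.triv (x j)).source : Set ((Fin k → C2) × E)) :=
    (F.triv (x j)).open_source.preimage continuous_snd
  have h2 : ContinuousOn (fun q : (Fin k → C2) × E =>
      ‖(F.triv (x j) q.2).2 - (F.triv (x j) (x j)).2 - q.1 j‖)
      (Prod.snd ⁻¹' (F.triv (x j)).source) := by
    have h3 : ContinuousOn (fun q : (Fin k → C2) × E => F.triv (x j) q.2)
        (Prod.snd ⁻¹' (F.triv (x j)).source) :=
      (F.triv (x j)).continuousOn.comp continuous_snd.continuousOn fun q hq => hq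
    have h4 : ContinuousOn (fun q : (Fin k → C2) × E => q.1 j)
        (Prod.snd ⁻¹' (F.triv (x j)).source) :=
      ((continuous_apply j).comp continuous_fst).continuousOn
    exact (((continuous_snd.comp_continuousOn h3).sub continuousOn_const).sub h4).norm
  exact h2.isOpen_inter_preimage h1 isOpen_Iio

/-- the condition on the graph -/
theorem isOpen_graph {k : ℕ} {X : Type} [TopologicalSpace X]
    (S : Fin k → Set ((Fin k → C2) × E)) (hS : ∀ j, IsOpen (S j)) (C : Fin k → Set X)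
    (hC : ∀ j, IsClosed (C j)) {K : Set (Fin k → C2)} (hK : IsClosed K) :
    IsOpen {q : (X × (Fin k → C2)) × E | ∀ j, q.1.1 ∈ C j → q.1.2 ∈ K → (q.1.2, q.2) ∈ S j} := by
  have : {q : (X × (Fin k → C2)) × E | ∀ j, q.1.1 ∈ C j → q.1.2 ∈ K → (q.1.2, q.2) ∈ S j} =
      ⋂ j, (((fun q : (X × (Fin k → C2)) × E => q.1.1) ⁻¹' (C j)ᶜ ∪
        (fun q : (X × (Fin k → C2)) × E => q.1.2) ⁻¹' Kᶜ) ∪
        (fun q : (X × (Fin k → C2)) × E => (q.1.2, q.2)) ⁻¹' S j) := by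
    ext q
    simp only [mem_ofPred_eq, mem_iInter, mem_union, mem_preimage, mem_compl_iff]
    exact forall_congr' fun j => by tauto
  rw [this]
  refine isOpen_iInter_of_finite fun j => ?_
  exact (((hC j).isOpen_compl.preimage (by fun_prop)).union
    (hK.isOpen_compl.preimage (by fun_prop))).union ((hS j).preimage (by fun_prop))

end

end Vale.Agent.P290.R2.H340
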