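import Vale.Agent.P290.R2.H340.JetLin

/-! Interpolation of 1-jets with a family of maps with many parameters. -/

open Set Filter Metric
open scoped Topology

namespace Vale.Agent.P290.R2.H340

open Vale.Agent.P290 Vale.Agent.P290.K Vale.Agent.P290.H580 Vale.Agent.P290.H805
open Vale.Agent.P290.R2.H596

theorem solve (hs : StSurj) {T E : Type} [TopologicalSpace T] [TopologicalSpace E]
    {F : Family T E} {t : T} {V : Type} [NormedAddCommGroup V] [NormedSpace ℂ V]
    [FiniteDimensional ℂ V] {k : ℕ} (x x' : Fin k → E) (v : V × (Fin k → C2) → E)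
    (z : Fin k → V) {r ε R R' C Λ : ℝ} (hr : 0 < r) (hε : 0 < ε)
    (hv : ∀ q ∈ closedBall (0 : V) R ×ˢ closedBall (0 : Fin k → C2) R', FH F t v q)
    (hn : ∀ j, ∀ y ∈ closedBall (z j) ε, ∀ w ∈ closedBall (0 : Fin k → C2) r,
      (w, v (y, w)) ∈ Nr F x (r / 64) j)
    (hzR : ∀ j, closedBall (z j) ε ⊆ closedBall (0 : V) R) (hrR : r ≤ R')
    (χ : Fin k → V → ℂ) (hχ : ∀ j, Differentiable ℂ (χ j)) (hχ1 : ∀ j, χ j (z j) = 1)
    (hχ0 : ∀ i j, i ≠ j → χ j (z i) = 0)
    (hχC : ∀ j, ∀ y ∈ closedBall (0 : V) R, ‖χ j y‖ ≤ C)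
    (hR' : r + C ^ 2 * (2 * (Λ + r / 64 / ε)) * (2 * R) ≤ R')
    (hx' : ∀ j, x' j ∈ (F.triv (x j)).source ∧
      ‖(F.triv (x j) (x' j)).2 - (F.triv (x j) (x j)).2‖ < r / 8)
    (ht : ∀ j, F.p (x' j) = t) (L : Fin k → V →L[ℂ] C2) (hL : ∀ j, ‖L j‖ ≤ Λ) :
    ∃ g : V → E, (∀ y ∈ closedBall (0 : V) R, FH F t g y) ∧ ∀ j, g (z j) = x' j ∧
      HasFDerivAt (fun y => (F.triv (x j) (g y)).2) (L j) (z j) := by
  classical
  have hzz : ∀ j, z j ∈ closedBall (z j) ε := fun j => mem_closedBall_self hε.le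
  have hzR0 : ∀ j, z j ∈ closedBall (0 : V) R := fun j => hzR j (hzz j)
  have hmem : ∀ j, ∀ y ∈ closedBall (z j) ε, ∀ w ∈ closedBall (0 : Fin k → C2) r,
      ((y, w) : V × (Fin k → C2)) ∈
        closedBall (0 : V) R ×ˢ closedBall (0 : Fin k → C2) R' :=
    fun j y hy w hw => ⟨hzR j hy, closedBall_subset_closedBall hrR hw⟩
  -- the coordinate maps are holomorphic
  have hΨ : ∀ j, ∀ y ∈ closedBall (z j) ε, ∀ w ∈ closedBall (0 : Fin k → C2) r,
      DifferentiableAt ℂ (fun q : V × (Fin k → C2) => (F.triv (x j) (v q)).2) (y, w) :=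
    fun j y hy w hw => (hv _ (hmem j y hy w hw)).diff (hn j y hy w hw).1
  -- the values
  obtain ⟨w₀, hw₀, hwb⟩ := hs (Fin k → C2)
    (fun w j => (F.triv (x j) (v (z j, w))).2 - (F.triv (x j) (x j)).2) (r / 2) (by positivity)
    (by
      intro w hw
      rw [differentiableAt_pi]
      intro j
      have hw' : w ∈ closedBall (0 : Fin k → C2) r :=
        closedBall_subset_closedBall (by linarith) (ball_subset_closedBall hw)
      have h3 : DifferentiableAt ℂ (fun w : Fin k → C2 => ((z j, w) : V × (Fin k → C2))) w :=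
        (differentiableAt_const _).prodMk differentiableAt_id
      have h4 := DifferentiableAt.comp (g := fun q : V × (Fin k → C2) => (F.triv (x j) (v q)).2)
        (f := fun w : Fin k → C2 => ((z j, w) : V × (Fin k → C2))) w
        (hΨ j (z j) (hzz j) w hw') h3
      exact h4.sub (differentiableAt_const _))
    (by
      intro w hw
      have hw' : w ∈ closedBall (0 : Fin k → C2) r :=
        closedBall_subset_closedBall (by linarith) (ball_subset_closedBall hw)
      refine (pi_norm_le_iff_of_nonneg (by positivity)).2 fun j => ?_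
      have h3 := (hn j (z j) (hzz j) w hw').2.le
      have h4 : r / 64 ≤ r / 2 / 8 := by linarith
      exact h3.trans h4)
    (fun j => (F.triv (x j) (x' j)).2 - (F.triv (x j) (x j)).2)
    ((pi_norm_le_iff_of_nonneg (by positivity)).2 fun j => by
      have h3 := (hx' j).2.le
      have h4 : r / 8 ≤ r / 2 / 4 := by linarith
      exact h3.trans h4)
  have hw₀' : w₀ ∈ closedBall (0 : Fin k → C2) r :=
    closedBall_subset_closedBall (by linarith) (ball_subset_closedBall hw₀)
  have hw₀n : ‖w₀‖ < r / 2 := mem_ball_zero_iff.1 hw₀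
  -- the linear equations
  have hlin : ∀ j, ∃ M : V →L[ℂ] C2, (∀ ζ, fderiv ℂ (fun q : V × (Fin k → C2) =>
      (F.triv (x j) (v q)).2) (z j, w₀) (ζ, Pi.single j (M ζ)) = L j ζ) ∧
      ‖M‖ ≤ 2 * (Λ + r / 64 / ε) := by
    intro j
    obtain ⟨D, hD⟩ : ∃ D, D = fderiv ℂ (fun q : V × (Fin k → C2) =>
      (F.triv (x j) (v q)).2) (z j, w₀) := ⟨_, rfl⟩
    have hDd : HasFDerivAt (fun q : V × (Fin k → C2) => (F.triv (x j) (v q)).2) D (z j, w₀) := by
      rw [hD]; exact (hΨ j (z j) (hzz j) w₀ hw₀').hasFDerivAt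
    rw [← hD]
    -- the derivative in the first variable
    have hz1 : HasFDerivAt (fun y : V => (F.triv (x j) (v (y, w₀))).2 -
        (F.triv (x j) (x j)).2 - w₀ j) (D.comp (ContinuousLinearMap.inl ℂ V (Fin k → C2)))
        (z j) := by
      have h3 := HasFDerivAt.comp (z j) hDd (hasFDerivAt_prodMk_left (𝕜 := ℂ) (z j) w₀)
      exact (h3.sub_const _).sub_const _
    have hz2 : ‖D.comp (ContinuousLinearMap.inl ℂ V (Fin k → C2))‖ ≤ r / 64 / ε := by
      rw [← hz1.fderiv]
      refine norm_fderiv_le_of_bound hε (fun y hy => ?_) (fun y hy => ?_)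
      · have hy' := ball_subset_closedBall hy
        have h3 : DifferentiableAt ℂ (fun y : V => ((y, w₀) : V × (Fin k → C2))) y :=
          differentiableAt_id.prodMk (differentiableAt_const _)
        have h4 := DifferentiableAt.comp (g := fun q : V × (Fin k → C2) =>
          (F.triv (x j) (v q)).2) (f := fun y : V => ((y, w₀) : V × (Fin k → C2))) y
          (hΨ j y hy' w₀ hw₀') h3
        exact ((h4.sub_const _).sub_const _).differentiableWithinAt
      · exact (hn j y (ball_subset_closedBall hy) w₀ hw₀').2.le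
    -- the derivative in the second variable
    have hw1 : HasFDerivAt (fun w : Fin k → C2 => (F.triv (x j) (v (z j, w))).2 -
        (F.triv (x j) (x j)).2 - w j) (D.comp (ContinuousLinearMap.inr ℂ V (Fin k → C2)) -
          ContinuousLinearMap.proj (R := ℂ) (φ := fun _ : Fin k => C2) j) w₀ := by
      have h3 := HasFDerivAt.comp w₀ hDd (hasFDerivAt_prodMk_right (𝕜 := ℂ) (z j) w₀)
      exact (h3.sub_const _).sub
        (ContinuousLinearMap.proj (R := ℂ) (φ := fun _ : Fin k => C2) j).hasFDerivAt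
    have hw2 : ‖D.comp (ContinuousLinearMap.inr ℂ V (Fin k → C2)) -
        ContinuousLinearMap.proj (R := ℂ) (φ := fun _ : Fin k => C2) j‖ ≤ 1 / 32 := by
      rw [← hw1.fderiv]
      have hsub : ball w₀ (r / 2) ⊆ closedBall (0 : Fin k → C2) r := by
        intro w hw
        rw [mem_ball, dist_eq_norm] at hw
        rw [mem_closedBall_zero_iff]
        calc ‖w‖ = ‖(w - w₀) + w₀‖ := by rw [sub_add_cancel]
          _ ≤ ‖w - w₀‖ + ‖w₀‖ := norm_add_le _ _
          _ ≤ r := by linarith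
      have h5 : ‖fderiv ℂ (fun w : Fin k → C2 => (F.triv (x j) (v (z j, w))).2 -
          (F.triv (x j) (x j)).2 - w j) w₀‖ ≤ r / 64 / (r / 2) := by
        refine norm_fderiv_le_of_bound (by positivity) (fun w hw => ?_) (fun w hw => ?_)
        · have h3 : DifferentiableAt ℂ (fun w : Fin k → C2 => ((z j, w) : V × (Fin k → C2))) w :=
            (differentiableAt_const _).prodMk differentiableAt_id
          have h4 := DifferentiableAt.comp (g := fun q : V × (Fin k → C2) =>
            (F.triv (x j) (v q)).2) (f := fun w : Fin k → C2 => ((z j, w) : V × (Fin k → C2))) w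
            (hΨ j (z j) (hzz j) w (hsub hw)) h3
          exact ((h4.sub_const _).sub (differentiableAt_apply j w)).differentiableWithinAt
        · exact (hn j (z j) (hzz j) w (hsub hw)).2.le
      refine h5.trans (le_of_eq ?_)
      field_simp
      norm_num
    -- the endomorphism `B`
    obtain ⟨B, hBdef⟩ : ∃ B : C2 →L[ℂ] C2, B = (D.comp (ContinuousLinearMap.inr ℂ V
        (Fin k → C2)) - ContinuousLinearMap.proj (R := ℂ) (φ := fun _ : Fin k => C2) j).comp
          (ContinuousLinearMap.single ℂ (fun _ : Fin k => C2) j) := ⟨_, rfl⟩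
    have hBv : ∀ c : C2, D (0, Pi.single j c) = B c + c := by
      intro c
      rw [hBdef]
      simp
    have hB : ‖B‖ ≤ 1 / 32 := by
      rw [hBdef]
      refine ContinuousLinearMap.opNorm_le_bound _ (by norm_num) fun c => ?_
      have h6 : ‖(Pi.single j c : Fin k → C2)‖ = ‖c‖ :=
        Pi.norm_single (G := fun _ : Fin k => C2) c
      have h7 := (D.comp (ContinuousLinearMap.inr ℂ V (Fin k → C2)) -
        ContinuousLinearMap.proj (R := ℂ) (φ := fun _ : Fin k => C2) j).le_opNorm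
          (Pi.single j c)
      rw [h6] at h7
      exact h7.trans (by gcongr)
    obtain ⟨M, hM1, hM2⟩ := exists_lin B hB
      (L j - D.comp (ContinuousLinearMap.inl ℂ V (Fin k → C2)))
    refine ⟨M, fun ζ => ?_, ?_⟩
    · have h3 : ((ζ, Pi.single j (M ζ)) : V × (Fin k → C2)) =
          (ζ, 0) + (0, Pi.single j (M ζ)) := by simp
      rw [h3, map_add, hBv, add_comm (B (M ζ)), hM1 ζ]
      simp
    · refine hM2.trans ?_
      have h3 : ‖L j - D.comp (ContinuousLinearMap.inl ℂ V (Fin k → C2))‖ ≤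
          Λ + r / 64 / ε := (norm_sub_le _ _).trans (add_le_add (hL j) hz2)
      linarith
  choose M hM1 hM2 using hlin
  -- the substitution
  obtain ⟨W, hW⟩ : ∃ W : V → Fin k → C2, W = fun y j => w₀ j + (χ j y * χ j y) • M j (y - z j) :=
    ⟨_, rfl⟩
  have hWd : Differentiable ℂ W := by
    rw [hW]
    refine differentiable_pi.2 fun j => ?_
    exact (differentiable_const _).add (((hχ j).mul (hχ j)).smul
      ((M j).differentiable.comp (differentiable_id.sub_const _)))
  have hWz : ∀ i, W (z i) = w₀ := by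
    intro i
    rw [hW]
    funext j
    by_cases hij : i = j
    · subst hij
      simp
    · simp [hχ0 i j hij]
  have hWder : ∀ i, HasFDerivAt W
      ((ContinuousLinearMap.single ℂ (fun _ : Fin k => C2) i).comp (M i)) (z i) := by
    intro i
    rw [hasFDerivAt_pi']
    intro j
    have h3 : HasFDerivAt (χ j) (fderiv ℂ (χ j) (z i)) (z i) := (hχ j _).hasFDerivAt
    have h4 : HasFDerivAt (fun y => M j (y - z j)) (M j) (z i) := by
      have h7 := HasFDerivAt.comp (z i) ((M j).hasFDerivAt (x := z i - z j))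
        ((hasFDerivAt_id (z i)).sub_const (z j))
      rw [ContinuousLinearMap.comp_id] at h7
      exact h7
    have h5 := ((h3.mul h3).smul h4).const_add (w₀ j)
    rw [hW]
    refine h5.congr_fderiv ?_
    ext1 ζ
    by_cases hij : i = j
    · subst hij
      simp [hχ1]
    · simp [hχ0 i j hij, Pi.single_eq_of_ne (Ne.symm hij)]
  have hWb : ∀ y ∈ closedBall (0 : V) R, W y ∈ closedBall (0 : Fin k → C2) R' := by
    intro y hy
    rcases isEmpty_or_nonempty (Fin k) with hem | ⟨⟨j₀⟩⟩
    · have : W y = 0 := Subsingleton.elim _ _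
      rw [this]
      exact mem_closedBall_self (hr.le.trans hrR)
    rw [mem_closedBall_zero_iff]
    refine (pi_norm_le_iff_of_nonneg (hr.le.trans hrR)).2 fun j => ?_
    rw [hW]
    have h3 : ‖w₀ j‖ ≤ r / 2 := (norm_le_pi_norm w₀ j).trans hw₀n.le
    have h4 : ‖χ j y‖ ≤ C := hχC j y hy
    have h5 : ‖y - z j‖ ≤ 2 * R := by
      have h6 : ‖y‖ ≤ R := mem_closedBall_zero_iff.1 hy
      have h7 : ‖z j‖ ≤ R := mem_closedBall_zero_iff.1 (hzR0 j)
      calc ‖y - z j‖ ≤ ‖y‖ + ‖z j‖ := norm_sub_le _ _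
        _ ≤ 2 * R := by linarith
    have h8 : ‖M j (y - z j)‖ ≤ 2 * (Λ + r / 64 / ε) * (2 * R) :=
      ((M j).le_opNorm _).trans (mul_le_mul (hM2 j) h5 (norm_nonneg _)
        ((norm_nonneg _).trans (hM2 j)))
    have h9 : 0 ≤ C := (norm_nonneg _).trans h4
    calc ‖w₀ j + (χ j y * χ j y) • M j (y - z j)‖
        ≤ ‖w₀ j‖ + ‖(χ j y * χ j y) • M j (y - z j)‖ := norm_add_le _ _
      _ = ‖w₀ j‖ + ‖χ j y‖ * ‖χ j y‖ * ‖M j (y - z j)‖ := by rw [norm_smul, norm_mul]
      _ ≤ r / 2 + C * C * (2 * (Λ + r / 64 / ε) * (2 * R)) := by gcongr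
      _ ≤ R' := by nlinarith [hR']
  refine ⟨fun y => v (y, W y), fun y hy => ?_, fun j => ⟨?_, ?_⟩⟩
  · exact FH.comp (q := fun y : V => ((y, W y) : V × (Fin k → C2)))
      (hv _ ⟨hy, hWb y hy⟩) (differentiableAt_id.prodMk (hWd y))
  · have h3 := congrFun hwb j
    have h4 : (F.triv (x j) (v (z j, w₀))).2 = (F.triv (x j) (x' j)).2 := sub_left_injective h3
    have h5 : F.p (v (z j, w₀)) = t := (hv _ (hmem j _ (hzz j) _ hw₀')).1.self_of_nhds
    have h6 := (hn j (z j) (hzz j) w₀ hw₀').1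
    change v (z j, W (z j)) = x' j
    rw [hWz j]
    apply (F.triv (x j)).injOn h6 (hx' j).1
    rw [F.mk_eq _ h6, F.mk_eq _ (hx' j).1, h5, ht j, h4]
  · have h3 : HasFDerivAt (fun q : V × (Fin k → C2) => (F.triv (x j) (v q)).2)
        (fderiv ℂ (fun q : V × (Fin k → C2) => (F.triv (x j) (v q)).2) (z j, w₀))
        (z j, W (z j)) := by
      rw [hWz j]
      exact (hΨ j (z j) (hzz j) w₀ hw₀').hasFDerivAt
    have h4 := HasFDerivAt.comp (z j) h3 ((hasFDerivAt_id (z j)).prodMk (hWder j))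
    refine h4.congr_fderiv ?_
    ext1 ζ
    exact hM1 j ζ

end Vale.Agent.P290.R2.H340
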