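import Vale.Agent.P290.R2.H596.Spec2
import Vale.Agent.P290.R2.H340.JetSolve

/-! Interpolation of bounded 1-jets near a given tuple of points of the central fibre. -/

open Set Filter Metric
open scoped Topology

namespace Vale.Agent.P290.R2.H340

open Vale.Agent.P290 Vale.Agent.P290.K Vale.Agent.P290.H580 Vale.Agent.P290.H805
open Vale.Agent.P290.R2.H596

/-- J1 -/
theorem nearbyJet (hL : StLocal) (hO : StOka) (hs : StSurj) (hi : StInterp) : StNearbyJet := by
  intro T E _ _ F t₀ _ _ _ hOka V _ _ _ k z hz ρ Λ x hx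
  obtain ⟨n, hn, hinj⟩ := exists_nodes k
  obtain ⟨ρ₀, hρ₀, hG⟩ := hL T E F t₀ (k + 1) n hn hinj x hx
  -- the radius
  have htgt : ∀ j, ∀ᶠ w in 𝓝 (0 : Fin (k + 1) → C2),
      (t₀, (F.triv (x j) (x j)).2 + w j) ∈ (F.triv (x j)).target := by
    intro j
    have h1 : ContinuousAt (fun w : Fin (k + 1) → C2 =>
        ((t₀, (F.triv (x j) (x j)).2 + w j) : T × C2)) 0 :=
      continuousAt_const.prodMk (continuousAt_const.add (continuous_apply j).continuousAt)
    refine h1.eventually ((F.triv (x j)).open_target.mem_nhds ?_)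
    simp only [Pi.zero_apply, add_zero]
    have h2 := (F.triv (x j)).map_source (F.mem (x j))
    rw [F.mk_eq _ (F.mem (x j)), hx j] at h2
    exact h2
  obtain ⟨ρ₁, hρ₁, hρ₁'⟩ := Metric.nhds_basis_closedBall.eventually_iff.1 (eventually_all.2 htgt)
  obtain ⟨r, hrdef⟩ : ∃ r, r = min ρ₀ ρ₁ := ⟨_, rfl⟩
  have hr : 0 < r := by rw [hrdef]; exact lt_min hρ₀ hρ₁
  have hrρ₀ : r ≤ ρ₀ := by rw [hrdef]; exact min_le_left _ _
  have hrρ₁ : r ≤ ρ₁ := by rw [hrdef]; exact min_le_right _ _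
  obtain ⟨u, hu, hun⟩ := hG r hr hrρ₀ (fun j => Nr F x (r / 64) j) (by
    intro j w hw
    refine (isOpen_Nr F x (r / 64) j).mem_nhds ?_
    have h1 := hρ₁' (closedBall_subset_closedBall hrρ₁ hw) j
    refine ⟨(F.triv (x j)).map_target h1, ?_⟩
    change ‖(F.triv (x j) ((F.triv (x j)).symm (t₀, (F.triv (x j) (x j)).2 + w j))).2 -
      (F.triv (x j) (x j)).2 - w j‖ < r / 64
    rw [(F.triv (x j)).right_inv h1]
    simp only [add_sub_cancel_left, sub_self, norm_zero]
    positivity)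
  -- the entire map
  obtain ⟨G, hGd, hGn⟩ := hO T E F t₀ hOka (ℂ × (Fin (k + 1) → C2))
    (closedBall (0 : ℂ) 1 ×ˢ closedBall (0 : Fin (k + 1) → C2) r)
    ⟨(isCompact_closedBall _ _).prod (isCompact_closedBall _ _),
      (convex_closedBall _ _).prod (convex_closedBall _ _)⟩
    ⟨0, by simp [hr.le]⟩ u hu
    {q | ∀ j, q.1.1 ∈ ({n j} : Set ℂ) → q.1.2 ∈ closedBall (0 : Fin (k + 1) → C2) r →
      (q.1.2, q.2) ∈ Nr F x (r / 64) j} (by
      intro y hy
      refine (isOpen_graph _ (isOpen_Nr F x (r / 64)) (fun j => {n j})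
        (fun j => isClosed_singleton) isClosed_closedBall).mem_nhds ?_
      intro j hj hw
      have h1 := hun j y.2 hy.2
      change (y.2, u y) ∈ Nr F x (r / 64) j
      have h2 : y = (n j, y.2) := Prod.ext hj rfl
      rw [h2]
      exact h1)
  obtain ⟨P, hPd, hPz⟩ := interpV hi hz n
  have hu₀ : ∀ q : V × (Fin (k + 1) → C2), FH F t₀ (fun q => G (P q.1, q.2)) q := by
    intro q
    refine FH.comp (q := fun q : V × (Fin (k + 1) → C2) => (P q.1, q.2)) (hGd _) ?_
    have h1 : DifferentiableAt ℂ (fun q : V × (Fin (k + 1) → C2) => P q.1) q :=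
      DifferentiableAt.comp (g := P) (f := Prod.fst) q (hPd _) differentiableAt_fst
    exact h1.prodMk differentiableAt_snd
  -- the radius in the first variable
  have hUj : ∀ j, {y : V | ∀ w ∈ closedBall (0 : Fin (k + 1) → C2) r,
      (w, G (P y, w)) ∈ Nr F x (r / 64) j} ∈ 𝓝 (z j) := by
    intro j
    refine (isCompact_closedBall (0 : Fin (k + 1) → C2) r).eventually_forall_of_forall_eventually
      (P := fun y w => (w, G (P y, w)) ∈ Nr F x (r / 64) j) fun w hw => ?_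
    have h1 : ContinuousAt (fun q : V × (Fin (k + 1) → C2) => (q.2, G (P q.1, q.2))) (z j, w) :=
      continuousAt_snd.prodMk (hu₀ (z j, w)).2.1
    refine h1.eventually ((isOpen_Nr F x (r / 64) j).mem_nhds ?_)
    change (w, G (P (z j), w)) ∈ Nr F x (r / 64) j
    rw [hPz j]
    have h2 : ((n j, w) : ℂ × (Fin (k + 1) → C2)) ∈
        closedBall (0 : ℂ) 1 ×ˢ closedBall (0 : Fin (k + 1) → C2) r := by
      refine ⟨?_, hw⟩
      rw [mem_closedBall_zero_iff]
      exact (hn j).le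
    exact hGn _ h2 j rfl hw
  obtain ⟨ε, hεU, hε⟩ : ∃ ε : ℝ, (∀ j, closedBall (z j) ε ⊆
      {y : V | ∀ w ∈ closedBall (0 : Fin (k + 1) → C2) r,
        (w, G (P y, w)) ∈ Nr F x (r / 64) j}) ∧ 0 < ε := by
    have h1 : ∀ᶠ ε in 𝓝 (0 : ℝ), ∀ j, closedBall (z j) ε ⊆
        {y : V | ∀ w ∈ closedBall (0 : Fin (k + 1) → C2) r,
          (w, G (P y, w)) ∈ Nr F x (r / 64) j} :=
      eventually_all.2 fun j => eventually_closedBall_subset (hUj j)
    have h2 : ∀ᶠ ε in 𝓝[>] (0 : ℝ), ∀ j, closedBall (z j) ε ⊆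
        {y : V | ∀ w ∈ closedBall (0 : Fin (k + 1) → C2) r,
          (w, G (P y, w)) ∈ Nr F x (r / 64) j} := h1.filter_mono nhdsWithin_le_nhds
    exact (h2.and self_mem_nhdsWithin).exists
  obtain ⟨R, hρR, hzR⟩ : ∃ R : ℝ, ρ ≤ R ∧ ∀ j, closedBall (z j) ε ⊆ closedBall (0 : V) R := by
    refine ⟨|ρ| + ∑ j, ‖z j‖ + ε, ?_, fun j => ?_⟩
    · have h1 := le_abs_self ρ
      have h2 : 0 ≤ ∑ j, ‖z j‖ := Finset.sum_nonneg fun j _ => norm_nonneg _
      linarith
    · refine closedBall_subset_closedBall' ?_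
      have h1 := abs_nonneg ρ
      have h2 : ‖z j‖ ≤ ∑ j, ‖z j‖ :=
        Finset.single_le_sum (f := fun j => ‖z j‖) (fun j _ => norm_nonneg _) (Finset.mem_univ j)
      rw [dist_zero_right]
      linarith
  -- the scalar functions
  choose χ hχd hχz using fun j : Fin (k + 1) => interpV hi hz (fun i => if i = j then 1 else 0)
  obtain ⟨C, hC⟩ : ∃ C : ℝ, ∀ j, ∀ y ∈ closedBall (0 : V) R, ‖χ j y‖ ≤ C := by
    have : ProperSpace V := FiniteDimensional.proper ℂ V
    have h1 : ContinuousOn (fun y : V => fun j => χ j y) (closedBall (0 : V) R) :=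
      (continuous_pi fun j => (hχd j).continuous).continuousOn
    obtain ⟨C, hC⟩ := (isCompact_closedBall (0 : V) R).exists_bound_of_continuousOn h1
    exact ⟨C, fun j y hy => (norm_le_pi_norm (fun j => χ j y) j).trans (hC y hy)⟩
  obtain ⟨R', hR'⟩ : ∃ R' : ℝ, R' = r + C ^ 2 * (2 * (|Λ| + r / 64 / ε)) * (2 * R) := ⟨_, rfl⟩
  have hR0 : 0 ≤ R := by
    have h1 := hzR 0 (mem_closedBall_self hε.le)
    rw [mem_closedBall_zero_iff] at h1
    exact (norm_nonneg _).trans h1
  have hrR' : r ≤ R' := by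
    rw [hR']
    have : 0 ≤ C ^ 2 * (2 * (|Λ| + r / 64 / ε)) * (2 * R) := by positivity
    linarith
  -- the deformation
  have : ProperSpace V := FiniteDimensional.proper ℂ V
  have hdef := deformation (F := F) (t₀ := t₀) (V := V × (Fin (k + 1) → C2))
    (K := closedBall (0 : V) R ×ˢ closedBall (0 : Fin (k + 1) → C2) R')
    ⟨(isCompact_closedBall _ _).prod (isCompact_closedBall _ _),
      (convex_closedBall _ _).prod (convex_closedBall _ _)⟩
    (u₀ := fun q => G (P q.1, q.2))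
    (Eventually.of_forall fun q => hu₀ q)
    {q | ∀ j, q.1.1 ∈ closedBall (z j) ε → q.1.2 ∈ closedBall (0 : Fin (k + 1) → C2) r →
      (q.1.2, q.2) ∈ Nr F x (r / 64) j} (by
      intro y hy
      refine (isOpen_graph _ (isOpen_Nr F x (r / 64)) (fun j => closedBall (z j) ε)
        (fun j => isClosed_closedBall) isClosed_closedBall).mem_nhds ?_
      intro j hj hw
      exact hεU j hj y.2 hw)
  -- the nearby tuples
  have hp0 : ∀ᶠ x' in 𝓝 x, ∃ u : V × (Fin (k + 1) → C2) → E,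
      (∀ᶠ q in 𝓝ˢ (closedBall (0 : V) R ×ˢ closedBall (0 : Fin (k + 1) → C2) R'),
        FH F (F.p (x' 0)) u q) ∧
      ∀ q ∈ closedBall (0 : V) R ×ˢ closedBall (0 : Fin (k + 1) → C2) R',
        (q, u q) ∈ {q : (V × (Fin (k + 1) → C2)) × E | ∀ j, q.1.1 ∈ closedBall (z j) ε →
          q.1.2 ∈ closedBall (0 : Fin (k + 1) → C2) r → (q.1.2, q.2) ∈ Nr F x (r / 64) j} := by
    have h1 : ContinuousAt (fun x' : Fin (k + 1) → E => F.p (x' 0)) x :=
      ContinuousAt.comp (g := F.p) (f := fun x' : Fin (k + 1) → E => x' 0)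
        (continuousAt_p F (x 0)) (continuous_apply 0).continuousAt
    have h2 : Tendsto (fun x' : Fin (k + 1) → E => F.p (x' 0)) (𝓝 x) (𝓝 t₀) := by
      have := h1.tendsto
      rwa [hx 0] at this
    exact h2.eventually hdef
  have hnear : ∀ j, ∀ᶠ x' in 𝓝 x, x' j ∈ (F.triv (x j)).source ∧
      ‖(F.triv (x j) (x' j)).2 - (F.triv (x j) (x j)).2‖ < r / 8 := by
    intro j
    have h0 : ContinuousAt (fun x' : Fin (k + 1) → E => x' j) x :=
      (continuous_apply j).continuousAt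
    have h1 : ∀ᶠ y in 𝓝 (x j), y ∈ (F.triv (x j)).source :=
      (F.triv (x j)).open_source.mem_nhds (F.mem (x j))
    have h2 : ContinuousAt (fun y => ‖(F.triv (x j) y).2 - (F.triv (x j) (x j)).2‖) (x j) :=
      ((continuousAt_snd.comp ((F.triv (x j)).continuousAt (F.mem (x j)))).sub
        continuousAt_const).norm
    have h3 : ∀ᶠ y in 𝓝 (x j), ‖(F.triv (x j) y).2 - (F.triv (x j) (x j)).2‖ < r / 8 := by
      refine h2.eventually_lt_const ?_
      change ‖(F.triv (x j) (x j)).2 - (F.triv (x j) (x j)).2‖ < r / 8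
      rw [sub_self, norm_zero]
      positivity
    exact h0.eventually (h1.and h3)
  filter_upwards [hp0, eventually_all.2 hnear] with x' h1 h2 t ht L hLΛ
  obtain ⟨v, hv, hvn⟩ := h1
  rw [ht 0] at hv
  have hvK : ∀ q ∈ closedBall (0 : V) R ×ˢ closedBall (0 : Fin (k + 1) → C2) R',
      FH F t v q := fun q hq => hv.self_of_nhdsSet q hq
  obtain ⟨g, hg1, hg2⟩ := solve hs x x' v z hr hε hvK
    (fun j y hy w hw => hvn (y, w) ⟨hzR j hy, closedBall_subset_closedBall hrR' hw⟩ j hy hw)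
    hzR hrR' χ hχd (fun j => by rw [hχz]; simp) (fun i j hij => by rw [hχz]; simp [hij]) hC
    (le_of_eq hR'.symm) h2 ht L (fun j => (hLΛ j).trans (le_abs_self Λ))
  refine ⟨g, fun y hy => hg1 y (closedBall_subset_closedBall hρR hy), fun j => ?_⟩
  have hzj : z j ∈ closedBall (0 : V) R := hzR j (mem_closedBall_self hε.le)
  refine ⟨hg1 _ hzj, (hg2 j).1, ?_, (hg2 j).2⟩
  rw [(hg2 j).1]
  exact (h2 j).1

end Vale.Agent.P290.R2.H340
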