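import Vale.Agent.P290.R2.H596.Spec3

/-! The existence of large symplectic polydiscs is an open condition. -/

open Set Filter Metric
open scoped Topology

namespace Vale.Agent.P290.R2.H340

open Vale.Agent.P290 Vale.Agent.P290.K Vale.Agent.P290.H580 Vale.Agent.P290.H805
open Vale.Agent.P290.R2.H596

theorem det_eq2 (A : C2 →L[ℂ] C2) :
    A.det = (A (1, 0)).1 * (A (0, 1)).2 - (A (0, 1)).1 * (A (1, 0)).2 := by
  have h1 : A.det = LinearMap.det (A : C2 →ₗ[ℂ] C2) := rfl
  rw [h1, ← LinearMap.det_toMatrix (Module.Basis.finTwoProd ℂ), Matrix.det_fin_two]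
  simp [LinearMap.toMatrix_apply, Module.Basis.finTwoProd_zero, Module.Basis.finTwoProd_one,
    Module.Basis.coe_finTwoProd_repr]

theorem det_comp2 (A B : C2 →L[ℂ] C2) : (A.comp B).det = A.det * B.det :=
  LinearMap.det_comp (A : C2 →ₗ[ℂ] C2) (B : C2 →ₗ[ℂ] C2)

theorem det_diff {A : C2 → C2 →L[ℂ] C2} {z : C2} (hA : DifferentiableAt ℂ A z) :
    DifferentiableAt ℂ (fun y => (A y).det) z := by
  have h1 : ∀ v : C2, DifferentiableAt ℂ (fun y => A y v) z := fun v =>
    hA.clm_apply (differentiableAt_const v)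
  simp only [det_eq2]
  exact ((h1 _).fst.mul (h1 _).snd).sub ((h1 _).fst.mul (h1 _).snd)

section
variable {T E : Type} [TopologicalSpace T] [TopologicalSpace E] {F : Family T E}
  {vol : E → T × C2 → ℂ} {t : T}

/-- the Jacobian is holomorphic -/
theorem jac_diff (h0 : StJac) (hvol : RelForm F vol) {g : C2 → E} {z : C2}
    (hg : ∀ᶠ y in 𝓝 z, FH F t g y) : DifferentiableAt ℂ (jac F vol t g) z := by
  have hgz : FH F t g z := hg.self_of_nhds
  have hz : g z ∈ (F.triv (g z)).source := F.mem (g z)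
  have hsrc := hgz.eventually_source hz
  obtain ⟨U, hU, hUo, hzU⟩ := _root_.eventually_nhds_iff.1 (hg.and hsrc)
  have hd : DifferentiableOn ℂ (fun y => (F.triv (g z) (g y)).2) U := fun y hy =>
    ((hU y hy).1.diff (hU y hy).2).differentiableWithinAt
  have h1 : DifferentiableAt ℂ (fderiv ℂ (fun y => (F.triv (g z) (g y)).2)) z :=
    (differentiableOn_fderiv hUo hd).differentiableAt (hUo.mem_nhds hzU)
  have h2 := det_diff h1
  have hzt : F.p (g z) = t := hgz.1.self_of_nhds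
  have e1 : F.triv (g z) (g z) = (t, (F.triv (g z) (g z)).2) := by
    rw [← hzt]; exact F.mk_eq _ hz
  have e2 : (t, (F.triv (g z) (g z)).2) ∈ (F.triv (g z)).target := by
    rw [← e1]; exact (F.triv (g z)).map_source hz
  have h3 : DifferentiableAt ℂ (fun u => vol (g z) (t, u)) (F.triv (g z) (g z)).2 :=
    (hvol (g z) t _ e2).2.1
  have h4 : DifferentiableAt ℂ (fun y => vol (g z) (t, (F.triv (g z) (g y)).2)) z :=
    DifferentiableAt.comp (g := fun u => vol (g z) (t, u))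
      (f := fun y => (F.triv (g z) (g y)).2) z h3 (hgz.diff hz)
  refine (h4.mul h2).congr_of_eventuallyEq ?_
  filter_upwards [hUo.mem_nhds hzU] with y hy
  exact h0 T E F vol hvol t g y (g z) (hU y hy).1 (hU y hy).2

/-- the Jacobian of a composition -/
theorem jac_comp {g : C2 → E} {q : C2 → C2} {z : C2} (hg : FH F t g (q z))
    (hq : DifferentiableAt ℂ q z) :
    jac F vol t (fun y => g (q y)) z = jac F vol t g (q z) * (fderiv ℂ q z).det := by
  have h1 : fderiv ℂ (fun y => (F.triv (g (q z)) (g (q y))).2) z =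
      (fderiv ℂ (fun y => (F.triv (g (q z)) (g y)).2) (q z)).comp (fderiv ℂ q z) :=
    fderiv_comp z (g := fun y => (F.triv (g (q z)) (g y)).2) hg.2.2 hq
  simp only [jac]
  rw [h1, det_comp2, mul_assoc]

theorem continuousAt_p' (F : Family T E) (x : E) : ContinuousAt F.p x := by
  have h1 : ContinuousAt (fun y => (F.triv x y).1) x :=
    continuousAt_fst.comp ((F.triv x).continuousAt (F.mem x))
  refine h1.congr ?_
  filter_upwards [(F.triv x).open_source.mem_nhds (F.mem x)] with y hy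
  exact F.fst x y hy

end

/-- S3 -/
theorem symNear (h0 : StJac) (hJ : StJacClose) (hF : StFlat) (hs : StSurj) : StSymNear := by
  intro T E _ _ F vol hvol t₀ x₀ hx₀ R hR ⟨g₀, hg₀0, hg₀⟩
  -- the linear part at the origin
  have hg00 := hg₀ 0 (mem_closedBall_self (by linarith))
  have hsrc0 : g₀ 0 ∈ (F.triv x₀).source := by rw [hg₀0]; exact F.mem x₀
  have hd0 : DifferentiableAt ℂ (fun y => (F.triv x₀ (g₀ y)).2) 0 := hg00.1.diff hsrc0
  have hdet : (fderiv ℂ (fun y => (F.triv x₀ (g₀ y)).2) 0).det ≠ 0 := by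
    have h1 := hg00.2
    rw [h0 T E F vol hvol t₀ g₀ 0 x₀ hg00.1 hsrc0] at h1
    exact right_ne_zero_of_mul_eq_one h1
  obtain ⟨L, hL⟩ : ∃ L : C2 ≃L[ℂ] C2, (L : C2 →L[ℂ] C2) =
      fderiv ℂ (fun y => (F.triv x₀ (g₀ y)).2) 0 :=
    ⟨(fderiv ℂ (fun y => (F.triv x₀ (g₀ y)).2) 0).toContinuousLinearEquivOfDetNeZero hdet,
      ContinuousLinearMap.coe_toContinuousLinearEquivOfDetNeZero _ hdet⟩
  obtain ⟨a, ha⟩ : ∃ a, a = (F.triv x₀ x₀).2 := ⟨_, rfl⟩
  -- the small radius
  have hφ0 : HasFDerivAt (fun y => L.symm ((F.triv x₀ (g₀ y)).2 - a))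
      (ContinuousLinearMap.id ℂ C2) 0 := by
    have h1 := (L.symm : C2 →L[ℂ] C2).hasFDerivAt.comp (0 : C2)
      (hd0.hasFDerivAt.sub_const a)
    rw [← hL] at h1
    exact h1.congr_fderiv (ContinuousLinearMap.ext fun v => by simp)
  have hev : ∀ᶠ y in 𝓝 (0 : C2), g₀ y ∈ (F.triv x₀).source ∧
      ‖L.symm ((F.triv x₀ (g₀ y)).2 - a) - y‖ ≤ 1 / 32 * ‖y‖ := by
    have h1 := hφ0.isLittleO.bound (c := 1 / 32) (by norm_num)
    refine (hg00.1.eventually_source hsrc0).and ?_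
    filter_upwards [h1] with y hy
    have h2 : L.symm ((F.triv x₀ (g₀ 0)).2 - a) = 0 := by
      rw [hg₀0, ← ha, sub_self, map_zero]
    rw [h2] at hy
    simpa using hy
  obtain ⟨s₁, hs₁, hs₁'⟩ := Metric.nhds_basis_closedBall.eventually_iff.1 hev
  obtain ⟨s, hsdef⟩ : ∃ s, s = min s₁ (1 / 8) := ⟨_, rfl⟩
  have hs0 : 0 < s := by rw [hsdef]; exact lt_min hs₁ (by norm_num)
  have hss₁ : s ≤ s₁ := by rw [hsdef]; exact min_le_left _ _
  have hs8 : s ≤ 1 / 8 := by rw [hsdef]; exact min_le_right _ _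
  -- the flattening
  obtain ⟨ε, hε, hflat⟩ := hF R (R + 1 / 4) hR (by linarith)
  obtain ⟨𝒪₁, h𝒪₁, hclose⟩ := hJ T E F vol hvol t₀ g₀ (R + 1 / 2) (R + 3 / 4) (by linarith)
    (fun y hy => (hg₀ y (closedBall_subset_closedBall (by linarith) hy)).1) ε hε
  -- the open condition near the origin
  obtain ⟨N, hN⟩ : ∃ N : Set (C2 × E), N = {q | q.2 ∈ (F.triv x₀).source ∧
    ‖L.symm ((F.triv x₀ q.2).2 - a) - q.1‖ < s / 8} := ⟨_, rfl⟩
  have hNo : IsOpen N := by
    have h1 : IsOpen (Prod.snd ⁻¹' (F.triv x₀).source : Set (C2 × E)) :=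
      (F.triv x₀).open_source.preimage continuous_snd
    have h3 : ContinuousOn (fun q : C2 × E => F.triv x₀ q.2)
        (Prod.snd ⁻¹' (F.triv x₀).source) :=
      (F.triv x₀).continuousOn.comp continuous_snd.continuousOn fun q hq => hq
    have h4 : ContinuousOn (fun q : C2 × E => L.symm ((F.triv x₀ q.2).2 - a))
        (Prod.snd ⁻¹' (F.triv x₀).source) :=
      L.symm.continuous.comp_continuousOn
        ((continuous_snd.comp_continuousOn h3).sub continuousOn_const)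
    have h5 : ContinuousOn (fun q : C2 × E => ‖L.symm ((F.triv x₀ q.2).2 - a) - q.1‖)
        (Prod.snd ⁻¹' (F.triv x₀).source) :=
      (h4.sub continuous_fst.continuousOn).norm
    rw [hN]
    exact h5.isOpen_inter_preimage h1 isOpen_Iio
  obtain ⟨𝒪₂, h𝒪₂⟩ : ∃ 𝒪₂ : Set (C2 × E), 𝒪₂ = {q | q.1 ∈ closedBall (0 : C2) s → q ∈ N} :=
    ⟨_, rfl⟩
  have h𝒪₂o : IsOpen 𝒪₂ := by
    have : 𝒪₂ = Prod.fst ⁻¹' (closedBall (0 : C2) s)ᶜ ∪ N := by
      rw [h𝒪₂]
      ext q
      simp only [mem_ofPred_eq, mem_union, mem_preimage, mem_compl_iff]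
      tauto
    rw [this]
    exact (isClosed_closedBall.isOpen_compl.preimage continuous_fst).union hNo
  have hdef := deformation (F := F) (t₀ := t₀) (V := C2) (K := closedBall (0 : C2) (R + 3 / 4))
    ⟨isCompact_closedBall _ _, convex_closedBall _ _⟩ (u₀ := g₀)
    (by
      refine mem_nhdsSet_iff_exists.2 ⟨ball (0 : C2) (R + 1), isOpen_ball,
        closedBall_subset_ball (by linarith), fun y hy => (hg₀ y (ball_subset_closedBall hy)).1⟩)
    (𝒪₁ ∩ 𝒪₂) (by
      intro z hz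
      refine inter_mem (h𝒪₁ z hz) (h𝒪₂o.mem_nhds ?_)
      rw [h𝒪₂]
      intro hzs
      have h1 := hs₁' (closedBall_subset_closedBall hss₁ hzs)
      rw [hN]
      refine ⟨h1.1, h1.2.trans_lt ?_⟩
      have h2 : ‖z‖ ≤ s := mem_closedBall_zero_iff.1 hzs
      change 1 / 32 * ‖z‖ < s / 8
      linarith)
  -- the nearby points
  have hp : Tendsto F.p (𝓝 x₀) (𝓝 t₀) := by
    have := (continuousAt_p' F x₀).tendsto
    rwa [hx₀] at this
  have hb : ∀ᶠ x in 𝓝 x₀, x ∈ (F.triv x₀).source ∧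
      ‖L.symm ((F.triv x₀ x).2 - a)‖ < s / 4 := by
    have h1 : ∀ᶠ y in 𝓝 x₀, y ∈ (F.triv x₀).source :=
      (F.triv x₀).open_source.mem_nhds (F.mem x₀)
    have h3 : ContinuousAt (fun y => (F.triv x₀ y).2 - a) x₀ :=
      (continuousAt_snd.comp ((F.triv x₀).continuousAt (F.mem x₀))).sub continuousAt_const
    have h2 : ContinuousAt (fun y => ‖L.symm ((F.triv x₀ y).2 - a)‖) x₀ :=
      (ContinuousAt.comp (g := L.symm) (f := fun y => (F.triv x₀ y).2 - a)
        L.symm.continuous.continuousAt h3).norm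
    refine h1.and (h2.eventually_lt_const ?_)
    change ‖L.symm ((F.triv x₀ x₀).2 - a)‖ < s / 4
    rw [← ha, sub_self, map_zero, norm_zero]
    positivity
  filter_upwards [hp.eventually (hdef.and hclose), hb] with x hx hxb
  obtain ⟨⟨u, hu, hu𝒪⟩, hcl⟩ := hx
  have huF : ∀ y ∈ closedBall (0 : C2) (R + 3 / 4), FH F (F.p x) u y :=
    fun y hy => hu.self_of_nhdsSet y hy
  have huev : ∀ y ∈ closedBall (0 : C2) (R + 3 / 4), ∀ᶠ y' in 𝓝 y, FH F (F.p x) u y' :=
    fun y hy => (eventually_nhdsSet_iff_forall.1 hu) y hy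
  have hjac : ∀ y ∈ closedBall (0 : C2) (R + 1 / 2), ‖jac F vol (F.p x) u y - 1‖ < ε := by
    intro y hy
    have h1 := hcl u huF (fun y hy => (hu𝒪 y hy).1) y hy
    rwa [(hg₀ y (closedBall_subset_closedBall (by linarith) hy)).2] at h1
  have huN : ∀ y ∈ closedBall (0 : C2) s, u y ∈ (F.triv x₀).source ∧
      ‖L.symm ((F.triv x₀ (u y)).2 - a) - y‖ < s / 8 := by
    intro y hy
    have h1 := (hu𝒪 y (closedBall_subset_closedBall (by linarith) hy)).2
    rw [h𝒪₂] at h1
    have h2 := h1 hy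
    rw [hN] at h2
    exact h2
  -- the point `z₀`
  obtain ⟨z₀, hz₀, hz₀x⟩ := hs C2 (fun y => L.symm ((F.triv x₀ (u y)).2 - a)) s hs0
    (fun y hy => by
      have hy' := ball_subset_closedBall hy
      have h1 : DifferentiableAt ℂ (fun y => (F.triv x₀ (u y)).2 - a) y :=
        ((huF y (closedBall_subset_closedBall (by linarith) hy')).diff (huN y hy').1).sub_const a
      exact DifferentiableAt.comp (g := L.symm) (f := fun y => (F.triv x₀ (u y)).2 - a) y
        L.symm.differentiable.differentiableAt h1)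
    (fun y hy => (huN y (ball_subset_closedBall hy)).2.le)
    (L.symm ((F.triv x₀ x).2 - a)) hxb.2.le
  have hz₀' := ball_subset_closedBall hz₀
  have huz₀ : u z₀ = x := by
    have h1 : (F.triv x₀ (u z₀)).2 = (F.triv x₀ x).2 := sub_left_injective (L.symm.injective hz₀x)
    have h2 : F.p (u z₀) = F.p x :=
      (huF z₀ (closedBall_subset_closedBall (by linarith) hz₀')).1.self_of_nhds
    apply (F.triv x₀).injOn (huN z₀ hz₀').1 hxb.1
    rw [F.mk_eq _ (huN z₀ hz₀').1, F.mk_eq _ hxb.1, h1, h2]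
  have hz₀n : ‖z₀‖ ≤ 1 / 8 := (mem_closedBall_zero_iff.1 hz₀').trans hs8
  have hmem : ∀ y ∈ ball (0 : C2) (R + 1 / 4), z₀ + y ∈ closedBall (0 : C2) (R + 1 / 2) := by
    intro y hy
    rw [mem_ball_zero_iff] at hy
    rw [mem_closedBall_zero_iff]
    calc ‖z₀ + y‖ ≤ ‖z₀‖ + ‖y‖ := norm_add_le _ _
      _ ≤ R + 1 / 2 := by linarith
  obtain ⟨ψ, hψ0, hψ⟩ := hflat (fun y => jac F vol (F.p x) u (z₀ + y)) (fun y hy => by
    have h1 := hmem y hy
    refine ⟨?_, (hjac _ h1).le⟩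
    have h2 : DifferentiableAt ℂ (jac F vol (F.p x) u) (z₀ + y) :=
      jac_diff h0 hvol (huev _ (closedBall_subset_closedBall (by linarith) h1))
    exact DifferentiableAt.comp (g := jac F vol (F.p x) u) (f := fun y => z₀ + y) y h2
      ((differentiableAt_const _).add differentiableAt_id))
  refine ⟨fun y => u (z₀ + ψ y), ?_, fun y hy => ?_⟩
  · change u (z₀ + ψ 0) = x
    rw [hψ0, add_zero, huz₀]
  · obtain ⟨h1, h2, h3⟩ := hψ y hy
    have h4 : FH F (F.p x) u (z₀ + ψ y) :=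
      huF _ (closedBall_subset_closedBall (by linarith) (hmem _ h2))
    have h5 : DifferentiableAt ℂ (fun y => z₀ + ψ y) y := (differentiableAt_const _).add h1
    have h6 : fderiv ℂ (fun y => z₀ + ψ y) y = fderiv ℂ ψ y := fderiv_const_add z₀
    refine ⟨FH.comp (q := fun y => z₀ + ψ y) h4 h5, ?_⟩
    rw [jac_comp (q := fun y => z₀ + ψ y) h4 h5, h6]
    exact h3

end Vale.Agent.P290.R2.H340
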